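import Vale.Agent.P323.Z.Tower

/-!
# Filter control (section 6)
-/

namespace Vale.Agent.P323.Z

open CategoryTheory

variable {D : Type 1} [Category.{1} D]

/-- A filter of subobjects of `b`. -/
structure Filt (b : D) (F : ∀ x : D, (x ⟶ b) → Prop) : Prop where
  one : F b (𝟙 b)
  up : ∀ {x y : D} {f : x ⟶ b} {g : y ⟶ b}, Thru f g → F x f → F y g
  inter : ∀ {x y z : D} {f : x ⟶ b} {g : y ⟶ b} {p : z ⟶ x} {q : z ⟶ y},
    IsPB p q f g → F x f → F y g → F z (p ≫ f)

namespace FCaux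

/-! ### Ordinals -/

/-- `δ` is a limit of elements of `S`. -/
def LimOf (S : Set Ordinal.{0}) (δ : Ordinal.{0}) : Prop :=
  (∃ i, i < δ) ∧ ∀ i, i < δ → ∃ j, j ∈ S ∧ i < j ∧ j < δ

theorem LimOf.isSuccLimit {S : Set Ordinal.{0}} {δ : Ordinal.{0}} (h : LimOf S δ) :
    Order.IsSuccLimit δ := by
  refine ⟨?_, ?_⟩
  · intro hm
    obtain ⟨i, hi⟩ := h.1
    exact absurd (hm hi.le) (not_le.2 hi)
  · intro a ha
    obtain ⟨j, -, h1, h2⟩ := h.2 a ha.lt
    exact ha.2 h1 h2

/-- Pressing down for ordinals (class version). -/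
theorem press {S : Set Ordinal.{0}} (hS : ∀ i, ∃ j, j ∈ S ∧ i < j) (g : Ordinal.{0} → Ordinal.{0})
    (hg : ∀ δ, LimOf S δ → g δ < δ) :
    ∃ κ, ∀ i, ∃ δ, i < δ ∧ LimOf S δ ∧ g δ ≤ κ := by
  by_contra hcon
  push Not at hcon
  choose F hF using hcon
  choose s hsS hs using hS
  -- sequence
  let d : ℕ → Ordinal.{0} := fun n => Nat.rec 0 (fun _ x => s (max x (F x))) n
  have hd : ∀ n, d (n + 1) = s (max (d n) (F (d n))) := fun n => rfl
  have hlt : ∀ n, d n < d (n + 1) := fun n => by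
    rw [hd]; exact lt_of_le_of_lt (le_max_left _ _) (hs _)
  have hFlt : ∀ n, F (d n) < d (n + 1) := fun n => by
    rw [hd]; exact lt_of_le_of_lt (le_max_right _ _) (hs _)
  have hdS : ∀ n, d (n + 1) ∈ S := fun n => by rw [hd]; exact hsS _
  have hbdd : BddAbove (Set.range d) := Ordinal.bddAbove_of_small
  let δ : Ordinal.{0} := ⨆ n, d n
  have hle : ∀ n, d n ≤ δ := fun n => le_ciSup hbdd n
  have hltδ : ∀ n, d n < δ := fun n => lt_of_lt_of_le (hlt n) (hle (n + 1))
  have hex : ∀ i, i < δ → ∃ n, i < d n := fun i hi => by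
    obtain ⟨_, ⟨n, rfl⟩, hn⟩ := exists_lt_of_lt_csSup (Set.range_nonempty d) hi
    exact ⟨n, hn⟩
  have hlim : LimOf S δ := by
    refine ⟨⟨d 0, hltδ 0⟩, fun i hi => ?_⟩
    obtain ⟨n, hn⟩ := hex i hi
    exact ⟨d (n + 1), hdS n, hn.trans (hlt n), hltδ (n + 1)⟩
  obtain ⟨n, hn⟩ := hex _ (hg δ hlim)
  exact absurd hn.le (not_le.2 (hF (d n) δ ((hFlt n).trans (hltδ (n + 1))) hlim))

/-- an unbounded class of ordinals does not inject in a small type -/
theorem not_small_of_unbdd {T : Set Ordinal.{0}} (hT : ∀ i, ∃ j, j ∈ T ∧ i < j)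
    {α : Type 1} [Small.{0} α] (f : T → α) (hf : Function.Injective f) : False := by
  have : Small.{0} T := small_of_injective hf
  obtain ⟨m, hm⟩ := Ordinal.bddAbove_of_small (s := T)
  obtain ⟨j, hj, hmj⟩ := hT m
  exact absurd (hm hj) (not_le.2 hmj)

/-! ### Facts on stages -/

variable [TwBase D]

/-- induction on stages: from stage `K > i₀` one reaches a smaller stage, unless new -/
theorem mem_cases {x y : D} {f : x ⟶ y} {K : Ordinal.{0}} (h : Mem K f) (hK : K ≠ 0) :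
    (∃ j, j < K ∧ Mem j f) ∨ ∃ k, K = k + 1 := by
  rcases Ordinal.zero_or_succ_or_isSuccLimit K with h0 | ⟨k, hk⟩ | hl
  · exact absurd h0 hK
  · exact Or.inr ⟨k, hk.symm⟩
  · exact Or.inl (TwBase.mem_lim hl h)

end FCaux

open FCaux

/-- FILTER CONTROL: a filter of subobjects of `b` is generated by its elements of some stage. -/
theorem fc [Tw D] {b : D} (F : ∀ x : D, (x ⟶ b) → Prop) (hF : Filt b F) :
    ∃ i, Mem i (𝟙 b) ∧ ∀ {x : D} (f : x ⟶ b), F x f →
      ∃ (y : D) (e : y ⟶ b), F y e ∧ Mem i e ∧ Thru e f := by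
  obtain ⟨k, hk⟩ := TwBase.mem_ex (𝟙 b)
  let S : Set Ordinal.{0} := {i | k ≤ i ∧ ∃ (x : D) (f : x ⟶ b), F x f ∧ Mem (i + 1) f ∧
    ∀ (y : D) (e : y ⟶ b), F y e → Mem i e → ¬ Thru e f}
  by_cases hb : ∀ i, ∃ j, j ∈ S ∧ i < j
  swap
  · -- `S` bounded
    push Not at hb
    obtain ⟨i₀, hi₀⟩ := hb
    refine ⟨max k (i₀ + 1), TwBase.mem_mono (le_max_left _ _) hk, ?_⟩
    have key : ∀ K : Ordinal.{0}, ∀ {x : D} (f : x ⟶ b), F x f → Mem K f →
        ∃ (y : D) (e : y ⟶ b), F y e ∧ Mem (max k (i₀ + 1)) e ∧ Thru e f := by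
      intro K
      induction K using WellFoundedLT.induction with
      | ind K ih =>
        intro x f hf hK
        by_cases hle : K ≤ max k (i₀ + 1)
        · exact ⟨x, f, hf, TwBase.mem_mono hle hK, Thru.refl f⟩
        · rw [not_le] at hle
          have hK0 : K ≠ 0 := fun h => by
            rw [h] at hle; exact absurd hle (not_lt.2 zero_le)
          rcases mem_cases hK hK0 with ⟨j, hj, hjf⟩ | ⟨k', rfl⟩
          · exact ih j hj f hf hjf
          · have hk' : max k (i₀ + 1) ≤ k' := Order.lt_succ_iff.1 hle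
            have hnS : k' ∉ S := fun h => by
              have h1 := hi₀ k' h
              have h2 : i₀ + 1 ≤ k' := (le_max_right _ _).trans hk'
              exact absurd (lt_of_lt_of_le (Order.lt_succ i₀) h2) (not_lt.2 h1)
            have h3 : ∃ (y : D) (e : y ⟶ b), F y e ∧ Mem k' e ∧ Thru e f := by
              by_contra hcon
              push Not at hcon
              exact hnS ⟨(le_max_left _ _).trans hk', x, f, hf, hK, fun y e h1 h2 => hcon y e h1 h2⟩
            obtain ⟨y, e, he, hke, hef⟩ := h3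
            obtain ⟨z, e', he', hke', hef'⟩ := ih k' (Order.lt_succ k') e he hke
            exact ⟨z, e', he', hke', hef'.trans hef⟩
    intro x f hf
    obtain ⟨K, hK⟩ := TwBase.mem_ex f
    exact key K f hf hK
  · -- `S` unbounded
    exfalso
    -- choice of the witnesses
    have hx : ∀ i : S, ∃ (x : D) (f : x ⟶ b), F x f ∧ Mem (i.1 + 1) f ∧
        ∀ (y : D) (e : y ⟶ b), F y e → Mem i.1 e → ¬ Thru e f := fun i => i.2.2
    choose X x hxF hxM hxn using hx
    have hnew : ∀ i : S, ¬ Mem i.1 (x i) := fun i h => hxn i _ _ (hxF i) h (Thru.refl _)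
    have hbm : ∀ i : Ordinal.{0}, k ≤ i → Mem i (𝟙 b) := fun i hi => TwBase.mem_mono hi hk
    let N : ∀ i : S, ND D i.1 (x i) := fun i =>
      Classical.choice (Tw.nd (x i) (hbm _ i.2.1) (hxM i) (hnew i))
    -- members of `Mem i` built from `ND`
    have hιM : ∀ i n, Mem i (ι n : (a n : D) ⟶ a (n + 1)) := fun i n =>
      TwBase.mem_mono zero_le (TwBase.ι_mem n)
    have hπx : ∀ i : S, Mem i.1 ((N i).π ≫ x i) := fun i => by
      rw [(N i).eq]
      exact TwBase.mem_comp (N i).hπ' (TwBase.mem_comp (hιM _ _) (N i).hA)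
    -- (i)
    have fact1 : ∀ (i : S) {e : D} (d : e ⟶ b), F e d → Mem i.1 d → Thru (N i).A d := by
      intro i e d hd hdM
      rcases (N i).N1 d hdM with h | h
      · exact h.1
      · exfalso
        obtain ⟨z, p, q, -, -, hpb⟩ :=
          TwBase.pb (hxM i) (TwBase.mem_mono (le_of_lt (Order.lt_succ i.1)) hdM)
        have h1 : F z (p ≫ x i) := hF.inter hpb (hxF i) hd
        have h2 : Thru p (N i).π := h p q hpb.1
        have h3 : F _ ((N i).π ≫ x i) := hF.up (h2.comp_right (x i)) h1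
        exact hxn i _ _ h3 (hπx i) (thru_comp_self _ _)
    -- (ii)
    have fact2 : ∀ {i : Ordinal.{0}} {d : D} (y : d ⟶ b) (M : ND D i y) {e : D} (z : e ⟶ b),
        Mem i z → Thru z y → Thru z (ι M.n ≫ M.A) := by
      rintro i d y M e z hz ⟨u, rfl⟩
      obtain ⟨h, hh⟩ := M.N0 u hz
      rw [← hh]
      refine ⟨h ≫ M.π', ?_⟩
      rw [Category.assoc, Category.assoc, M.eq]
    -- least element of `S` above `δ`
    have hne : ∀ δ : Ordinal.{0}, {i | i ∈ S ∧ δ ≤ i}.Nonempty := fun δ => by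
      obtain ⟨j, hj, hj'⟩ := hb δ
      exact ⟨j, hj, hj'.le⟩
    let J : Ordinal.{0} → Ordinal.{0} := fun δ => sInf {i | i ∈ S ∧ δ ≤ i}
    have hJ : ∀ δ, J δ ∈ S ∧ δ ≤ J δ := fun δ => csInf_mem (hne δ)
    have hJle : ∀ δ i, i ∈ S → δ ≤ i → J δ ≤ i := fun δ i h1 h2 => csInf_le' ⟨h1, h2⟩
    -- the invariant
    let Q : Ordinal.{0} → (m : ℕ) → ((a (m + 1) : D) ⟶ b) → Prop := fun δ m B =>
      (∀ i : S, i.1 < δ → Thru B (x i)) ∧
        ∀ {e : D} (y : e ⟶ b), Mem δ y → Thru y (x ⟨J δ, (hJ δ).1⟩) → Thru y (ι m ≫ B)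
    have hQ0 : ∀ δ, Order.IsSuccLimit δ → Q δ (N ⟨J δ, (hJ δ).1⟩).n (N ⟨J δ, (hJ δ).1⟩).A := by
      intro δ hδ
      refine ⟨fun i hi => ?_, fun y hy hyx => ?_⟩
      · refine fact1 _ _ (hxF i) (TwBase.mem_mono ?_ (hxM i))
        exact (Order.succ_le_of_lt hi).trans (hJ δ).2
      · exact fact2 _ _ y (TwBase.mem_mono (hJ δ).2 hy) hyx
    have hdesc : ∀ δ, LimOf S δ → ∀ K : Ordinal.{0}, ∀ (m : ℕ) (B : (a (m + 1) : D) ⟶ b),
        Mem K B → Q δ m B → ∃ (m' : ℕ) (B' : (a (m' + 1) : D) ⟶ b) (k' : Ordinal.{0}),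
          k' < δ ∧ Mem k' B' ∧ Q δ m' B' := by
      intro δ hδ K
      induction K using WellFoundedLT.induction with
      | ind K ih =>
        intro m B hB hQB
        by_cases hlt : K < δ
        · exact ⟨m, B, K, hlt, hB, hQB⟩
        · rw [not_lt] at hlt
          have hlim := hδ.isSuccLimit
          have hK0 : K ≠ 0 := fun h => by
            rw [h] at hlt
            obtain ⟨i, hi⟩ := hδ.1
            exact absurd (lt_of_lt_of_le hi hlt) (not_lt.2 zero_le)
          rcases mem_cases hB hK0 with ⟨j, hj, hjB⟩ | ⟨k', rfl⟩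
          · exact ih j hj m B hjB hQB
          · have hδk : δ ≤ k' := by
              rcases hlt.lt_or_eq with h | h
              · exact Order.lt_succ_iff.1 h
              · exfalso
                rw [h] at hlim
                exact absurd hlim (Order.not_isSuccLimit_succ k')
            by_cases hBk : Mem k' B
            · exact ih k' (Order.lt_succ k') m B hBk hQB
            · have hkk : k ≤ k' := by
                obtain ⟨i, hi⟩ := hδ.1
                obtain ⟨j, hjS, -, hj⟩ := hδ.2 i hi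
                exact hjS.1.trans (hj.le.trans hδk)
              obtain ⟨M⟩ := Tw.nd B (hbm _ hkk) hB hBk
              refine ih k' (Order.lt_succ k') M.n M.A M.hA ⟨fun i hi => ?_, fun y hy hyx => ?_⟩
              · have hik : Mem k' (x i) :=
                  TwBase.mem_mono ((Order.succ_le_of_lt hi).trans hδk) (hxM i)
                rcases M.N1 (x i) hik with h | h
                · exact h.1
                · exfalso
                  obtain ⟨v, hv⟩ := hQB.1 i hi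
                  exact M.N2 (h (𝟙 _) v (by rw [Category.id_comp, hv]))
              · have h1 : Thru y (ι m ≫ B) := hQB.2 y hy hyx
                exact fact2 B M y (TwBase.mem_mono hδk hy) (h1.trans (thru_comp_self _ _))
    have hfin : ∀ δ : Ordinal.{0}, ∃ (k' : Ordinal.{0}) (m : ℕ) (B : (a (m + 1) : D) ⟶ b),
        LimOf S δ → k' < δ ∧ Mem k' B ∧ Q δ m B := by
      intro δ
      by_cases hδ : LimOf S δ
      · obtain ⟨K, hK⟩ := TwBase.mem_ex (N ⟨J δ, (hJ δ).1⟩).A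
        obtain ⟨m, B, k', h1, h2, h3⟩ := hdesc δ hδ K _ _ hK (hQ0 δ hδ.isSuccLimit)
        exact ⟨k', m, B, fun _ => ⟨h1, h2, h3⟩⟩
      · exact ⟨0, _, (N ⟨J δ, (hJ δ).1⟩).A, fun h => absurd h hδ⟩
    choose g m B hgB using hfin
    obtain ⟨κ, hκ⟩ := press hb g (fun δ hδ => (hgB δ hδ).1)
    let T : Set Ordinal.{0} := {δ | κ < δ ∧ LimOf S δ ∧ g δ ≤ κ}
    have hT : ∀ i, ∃ j, j ∈ T ∧ i < j := by
      intro i
      obtain ⟨δ, h1, h2, h3⟩ := hκ (max i κ)
      exact ⟨δ, ⟨lt_of_le_of_lt (le_max_right _ _) h1, h2, h3⟩, lt_of_le_of_lt (le_max_left _ _) h1⟩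
    have hBκ : ∀ δ : T, Mem κ (B δ.1) := fun δ =>
      TwBase.mem_mono δ.2.2.2 (hgB δ.1 δ.2.2.1).2.1
    have hsm := TwBase.small (D := D) κ
    refine not_small_of_unbdd hT
      (fun δ : T => (⟨⟨a (m δ.1 + 1), b, B δ.1⟩, hBκ δ⟩ :
        {f : Σ x y : D, (x ⟶ y) // Mem κ f.2.2})) ?_
    have key : ∀ δ δ' : T, δ.1 < δ'.1 →
        (⟨a (m δ.1 + 1), b, B δ.1⟩ : Σ x y : D, (x ⟶ y)) ≠ ⟨a (m δ'.1 + 1), b, B δ'.1⟩ := by
      intro δ δ' hlt heq
      have hQ := (hgB δ.1 δ.2.2.1).2.2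
      have hQ' := (hgB δ'.1 δ'.2.2.1).2.2
      have hJlt : J δ.1 < δ'.1 := by
        obtain ⟨j, hjS, hj1, hj2⟩ := δ'.2.2.1.2 δ.1 hlt
        exact lt_of_le_of_lt (hJle _ j hjS hj1.le) hj2
      have h1 : Thru (B δ'.1) (x ⟨J δ.1, (hJ δ.1).1⟩) := hQ'.1 ⟨J δ.1, (hJ δ.1).1⟩ hJlt
      have h2 : Thru (B δ'.1) (ι (m δ.1) ≫ B δ.1) :=
        hQ.2 (B δ'.1) (TwBase.mem_mono δ.2.1.le (hBκ δ')) h1
      have h3 : Thru (B δ.1) (ι (m δ.1) ≫ B δ.1) := by
        have hP : ∀ z z' : (Σ x y : D, (x ⟶ y)), z = z' → ∀ (hz : z.2.1 = b) (hz' : z'.2.1 = b),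
            Thru (z'.2.2 ≫ eqToHom hz') (ι (m δ.1) ≫ B δ.1) →
            Thru (z.2.2 ≫ eqToHom hz) (ι (m δ.1) ≫ B δ.1) := by
          rintro z _ rfl hz hz' h
          exact h
        have := hP _ _ heq rfl rfl
        simp only [eqToHom_refl, Category.comp_id] at this
        exact this h2
      obtain ⟨h, hh⟩ := h3
      have hmono := TwBase.mono (B δ.1)
      have h4 : h ≫ ι (m δ.1) = 𝟙 _ := by
        rw [← cancel_mono (B δ.1), Category.assoc, hh, Category.id_comp]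
      exact TwBase.ι_not (m δ.1) ⟨h, h4⟩
    intro δ δ' heq
    have heq' := congrArg Subtype.val heq
    rcases lt_trichotomy δ.1 δ'.1 with h | h | h
    · exact absurd heq' (key δ δ' h)
    · exact Subtype.ext h
    · exact absurd heq'.symm (key δ' δ h)

end Vale.Agent.P323.Z
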